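import Mathlib

/-!
# A Fekete lemma for cubes, over real side lengths

`g L` stands for the logarithm of a partition function of the cube of side `L`.
Hypotheses: `g` is nonnegative, monotone in the side, bounded by `C * L ^ 3`, and
`k ^ 3` disjoint copies of the cube of side `l`, separated by corridors of width `w`,
fit into the cube of side `k * (l + w)` and give `k ^ 3 * g l <= g (k * (l + w))`.
Conclusion: `g L / L ^ 3` converges as the real number `L` tends to infinity, and the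
limit `F` satisfies `g l / (l + w) ^ 3 <= F` for every `l > 0`.
-/

namespace Vale.Agent.H72

open Filter Topology

/-- Fekete lemma for cubes with corridors of width `w` (real side lengths). -/
theorem fekete_cube_width (g : ℝ → ℝ) (C w : ℝ) (hw : 0 ≤ w)
    (h0 : ∀ L, 0 < L → 0 ≤ g L)
    (hmono : ∀ a b, 0 < a → a ≤ b → g a ≤ g b)
    (hsup : ∀ (l : ℝ) (k : ℕ), 0 < l → 1 ≤ k → (k : ℝ) ^ 3 * g l ≤ g (k * (l + w)))
    (hC : ∀ L, 0 < L → g L ≤ C * L ^ 3) :
    ∃ F : ℝ, Tendsto (fun L => g L / L ^ 3) atTop (𝓝 F) ∧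
      (∀ l, 0 < l → g l / (l + w) ^ 3 ≤ F) ∧ 0 ≤ F ∧ F ≤ C := by
  classical
  -- the candidate limit
  set S : Set ℝ := {y | ∃ l : ℝ, 0 < l ∧ y = g l / (l + w) ^ 3} with hS
  have hyC : ∀ l : ℝ, 0 < l → g l / (l + w) ^ 3 ≤ C := by
    intro l hl
    have hlw : 0 < l + w := by linarith
    have h3 : 0 < (l + w) ^ 3 := by positivity
    rw [div_le_iff₀ h3]
    have h1 : g l ≤ C * l ^ 3 := hC l hl
    have hC0 : 0 ≤ C := by
      have := hC 1 one_pos
      have h01 := h0 1 one_pos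
      nlinarith
    have h2 : l ^ 3 ≤ (l + w) ^ 3 := by
      apply pow_le_pow_left₀ hl.le
      linarith
    nlinarith
  have hSbdd : BddAbove S := by
    refine ⟨C, ?_⟩
    rintro y ⟨l, hl, rfl⟩
    exact hyC l hl
  have hSne : S.Nonempty := ⟨g 1 / (1 + w) ^ 3, 1, one_pos, rfl⟩
  set F : ℝ := sSup S with hF
  have hle : ∀ l : ℝ, 0 < l → g l / (l + w) ^ 3 ≤ F := by
    intro l hl
    exact le_csSup hSbdd ⟨l, hl, rfl⟩
  have hF0 : 0 ≤ F := by
    have h1 := hle 1 one_pos
    have h2 : 0 ≤ g 1 / (1 + w) ^ 3 := by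
      apply div_nonneg (h0 1 one_pos)
      positivity
    linarith
  have hFC : F ≤ C := by
    apply csSup_le hSne
    rintro y ⟨l, hl, rfl⟩
    exact hyC l hl
  refine ⟨F, ?_, hle, hF0, hFC⟩
  -- upper bound eventually
  have hup : ∀ L : ℝ, 0 < L → g L / L ^ 3 ≤ F * (1 + w / L) ^ 3 := by
    intro L hL
    have hLw : 0 < L + w := by linarith
    have h1 := hle L hL
    have h2 : g L / L ^ 3 = g L / (L + w) ^ 3 * (1 + w / L) ^ 3 := by
      have : 1 + w / L = (L + w) / L := by field_simp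
      rw [this, div_pow]
      field_simp
    rw [h2]
    apply mul_le_mul_of_nonneg_right h1
    have : 0 ≤ 1 + w / L := by positivity
    positivity
  have hupT : Tendsto (fun L : ℝ => F * (1 + w / L) ^ 3) atTop (𝓝 F) := by
    have h1 : Tendsto (fun L : ℝ => w / L) atTop (𝓝 0) :=
      tendsto_const_nhds.div_atTop tendsto_id
    have h2 : Tendsto (fun L : ℝ => F * (1 + w / L) ^ 3) atTop (𝓝 (F * (1 + 0) ^ 3)) :=
      ((h1.const_add 1).pow 3).const_mul F
    simpa using h2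
  -- lower bound eventually, for each fixed l
  have hlow : ∀ l : ℝ, 0 < l → ∀ L : ℝ, l + w ≤ L →
      (1 - (l + w) / L) ^ 3 * (g l / (l + w) ^ 3) ≤ g L / L ^ 3 := by
    intro l hl L hL
    have ht : 0 < l + w := by linarith
    have hLpos : 0 < L := by linarith
    set t : ℝ := l + w with htdef
    set k : ℕ := ⌊L / t⌋₊ with hk
    have hq1 : 1 ≤ L / t := by rw [le_div_iff₀ ht]; linarith
    have hk1 : 1 ≤ k := by
      have : 0 < k := Nat.floor_pos.mpr hq1
      omega
    have hkle : (k : ℝ) ≤ L / t := Nat.floor_le (by positivity)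
    have hklt : L / t < (k : ℝ) + 1 := Nat.lt_floor_add_one (L / t)
    have hkt : (k : ℝ) * t ≤ L := by
      have := (le_div_iff₀ ht).mp hkle
      linarith
    have hkt2 : L < ((k : ℝ) + 1) * t := by
      have := (div_lt_iff₀ ht).mp hklt
      linarith
    have hkpos : (0 : ℝ) < k := by exact_mod_cast hk1
    have hg1 : (k : ℝ) ^ 3 * g l ≤ g L := by
      have h1 := hsup l k hl hk1
      have h2 := hmono ((k : ℝ) * t) L (by positivity) hkt
      linarith
    have hgl : 0 ≤ g l := h0 l hl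
    -- (L - t) / t ≤ k
    have hx0 : 0 ≤ (L - t) / t := by
      apply div_nonneg _ ht.le
      linarith
    have hxk : (L - t) / t ≤ k := by
      rw [div_le_iff₀ ht]
      nlinarith
    have hx3 : ((L - t) / t) ^ 3 ≤ (k : ℝ) ^ 3 := pow_le_pow_left₀ hx0 hxk 3
    have hL3 : 0 < L ^ 3 := by positivity
    have ht3 : 0 < t ^ 3 := by positivity
    have heq : (1 - t / L) ^ 3 * (g l / t ^ 3) = ((L - t) / t) ^ 3 * g l / L ^ 3 := by
      have : 1 - t / L = (L - t) / L := by field_simp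
      rw [this, div_pow, div_pow]
      field_simp
    rw [heq]
    apply div_le_div_of_nonneg_right _ hL3.le
    calc ((L - t) / t) ^ 3 * g l ≤ (k : ℝ) ^ 3 * g l :=
          mul_le_mul_of_nonneg_right hx3 hgl
      _ ≤ g L := hg1
  have hlowT : ∀ l : ℝ, Tendsto (fun L : ℝ => (1 - (l + w) / L) ^ 3 * (g l / (l + w) ^ 3))
      atTop (𝓝 (g l / (l + w) ^ 3)) := by
    intro l
    have h1 : Tendsto (fun L : ℝ => (l + w) / L) atTop (𝓝 0) :=
      tendsto_const_nhds.div_atTop tendsto_id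
    have h2 : Tendsto (fun L : ℝ => (1 - (l + w) / L) ^ 3 * (g l / (l + w) ^ 3)) atTop
        (𝓝 ((1 - 0) ^ 3 * (g l / (l + w) ^ 3))) :=
      ((h1.const_sub 1).pow 3).mul_const _
    simpa using h2
  rw [tendsto_order]
  constructor
  · intro a ha
    obtain ⟨y, ⟨l, hl, rfl⟩, hay⟩ := exists_lt_of_lt_csSup hSne ha
    have h1 : ∀ᶠ L in atTop, a < (1 - (l + w) / L) ^ 3 * (g l / (l + w) ^ 3) :=
      (tendsto_order.1 (hlowT l)).1 a hay
    have h2 : ∀ᶠ L in atTop, l + w ≤ L := eventually_ge_atTop (l + w)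
    filter_upwards [h1, h2] with L hL1 hL2
    exact lt_of_lt_of_le hL1 (hlow l hl L hL2)
  · intro b hb
    have h1 : ∀ᶠ L in atTop, F * (1 + w / L) ^ 3 < b := (tendsto_order.1 hupT).2 b hb
    have h2 : ∀ᶠ L : ℝ in atTop, 0 < L := eventually_gt_atTop 0
    filter_upwards [h1, h2] with L hL1 hL2
    exact lt_of_le_of_lt (hup L hL2) hL1

/-- Fekete lemma for cubes with corridors of width one (real side lengths). -/
theorem fekete_cube (g : ℝ → ℝ) (C : ℝ)
    (h0 : ∀ L, 0 < L → 0 ≤ g L)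
    (hmono : ∀ a b, 0 < a → a ≤ b → g a ≤ g b)
    (hsup : ∀ (l : ℝ) (k : ℕ), 0 < l → 1 ≤ k → (k : ℝ) ^ 3 * g l ≤ g (k * (l + 1)))
    (hC : ∀ L, 0 < L → g L ≤ C * L ^ 3) :
    ∃ F : ℝ, Tendsto (fun L => g L / L ^ 3) atTop (𝓝 F) ∧
      (∀ l, 0 < l → g l / (l + 1) ^ 3 ≤ F) ∧ 0 ≤ F ∧ F ≤ C :=
  fekete_cube_width g C 1 zero_le_one h0 hmono hsup hC

end Vale.Agent.H72
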